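import Crest.Agent.S0047_aux.Game

set_option autoImplicit false

/-!
Bitboard certificate checker for the Snaky game and its soundness.
Cell `(x, y)` (relative to an arbitrary offset `τ`) has bit index `64 * y + x`, `0 ≤ x < 64`.
-/

namespace Crest.Agent.SnakyAux

open Crest.CombinatoricsR.PolyominoGame

/-- decoding of a bit index, relative to the offset `τ` -/
def dec (τ : Cell) (i : ℕ) : Cell := (τ.1 + ((i % 64 : ℕ) : ℤ), τ.2 + ((i / 64 : ℕ) : ℤ))

theorem dec_inj {τ : Cell} {i j : ℕ} (h : dec τ i = dec τ j) : i = j := by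
  simp only [dec, Prod.mk.injEq, add_right_inj, Nat.cast_inj] at h
  have h1 := Nat.div_add_mod i 64
  have h2 := Nat.div_add_mod j 64
  omega

theorem dec_shift (τ : Cell) (i t : ℕ) (h : i % 64 + t % 64 < 64) :
    dec τ (i + t) = dec (τ.1 + ((t % 64 : ℕ) : ℤ), τ.2 + ((t / 64 : ℕ) : ℤ)) i := by
  have h1 : (i + t) % 64 = i % 64 + t % 64 := by omega
  have h2 : (i + t) / 64 = i / 64 + t / 64 := by omega
  simp only [dec, h1, h2, Nat.cast_add, Prod.mk.injEq]
  constructor <;> ring

def bitsF (M : ℕ) : Finset ℕ := (Finset.range (M + 1)).filter (fun i => M.testBit i = true)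

theorem mem_bitsF {M i : ℕ} : i ∈ bitsF M ↔ M.testBit i = true := by
  simp only [bitsF, Finset.mem_filter, Finset.mem_range, and_iff_right_iff_imp]
  intro h
  have h1 := Nat.ge_two_pow_of_testBit h
  have h2 : i < 2 ^ i := Nat.lt_two_pow_self
  omega

def cellsF (τ : Cell) (M : ℕ) : Finset Cell := (bitsF M).image (dec τ)

theorem mem_cellsF {τ : Cell} {M : ℕ} {c : Cell} :
    c ∈ cellsF τ M ↔ ∃ i, M.testBit i = true ∧ dec τ i = c := by
  simp only [cellsF, Finset.mem_image, mem_bitsF]

theorem dec_mem_cellsF {τ : Cell} {M i : ℕ} : dec τ i ∈ cellsF τ M ↔ M.testBit i = true := by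
  rw [mem_cellsF]
  constructor
  · rintro ⟨j, hj, he⟩
    rw [← dec_inj he]; exact hj
  · intro h; exact ⟨i, h, rfl⟩

theorem testBit_bit (m i : ℕ) : (1 <<< m).testBit i = decide (i = m) := by
  rw [Nat.one_shiftLeft, Nat.testBit_two_pow]
  by_cases h : i = m
  · simp [h]
  · simp [h, Ne.symm h]

theorem cellsF_or_bit (τ : Cell) (M m : ℕ) :
    cellsF τ (M ||| 1 <<< m) = insert (dec τ m) (cellsF τ M) := by
  ext c
  simp only [mem_cellsF, Finset.mem_insert, Nat.testBit_or, testBit_bit, Bool.or_eq_true,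
    decide_eq_true_eq]
  constructor
  · rintro ⟨i, hi | rfl, rfl⟩
    · exact Or.inr ⟨i, hi, rfl⟩
    · exact Or.inl rfl
  · rintro (rfl | ⟨i, hi, rfl⟩)
    · exact ⟨m, Or.inr rfl, rfl⟩
    · exact ⟨i, Or.inl hi, rfl⟩

theorem cellsF_zero (τ : Cell) : cellsF τ 0 = ∅ := by
  ext c
  simp [mem_cellsF]

theorem testBit_of_and_eq {M c i : ℕ} (h : M &&& c = c) (hi : c.testBit i = true) :
    M.testBit i = true := by
  have := congrArg (fun x => Nat.testBit x i) h
  simp only [Nat.testBit_and, hi, Bool.and_true] at this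
  exact this

theorem testBit_false_of_and_bit {M m : ℕ} (h : M &&& 1 <<< m = 0) : M.testBit m = false := by
  have := congrArg (fun x => Nat.testBit x m) h
  simpa [Nat.testBit_and, testBit_bit] using this

theorem testBit_shiftLeft_add (c t i : ℕ) : (c <<< t).testBit (i + t) = c.testBit i := by
  rw [Nat.testBit_shiftLeft]
  simp

/-- the eight normalised orientations of Snaky, as masks -/
def copyMask : ℕ → ℕ
  | 0 => 442721857769029238799
  | 1 => 55340232221128654878
  | 2 => 276701161105643274264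
  | 3 => 553402322211286548483
  | 4 => 231584178474632390865973275223535857998387619967825065790704055700723840581633
  | 5 => 115792089237316195442402290214847950145457917669105440214728293044316188704770
  | 6 => 115792089237316195429848086744074588617446056455769168919078654292030061019138
  | _ => 231584178474632390859696173488149177234892112911538337838101968351838993383425

theorem copy_case (τ : Cell) (M' t c : ℕ) (ht : t % 64 < 59)
    (hsub : M' &&& (c <<< t) = c <<< t) (dx dy : ℕ) (hdx : dx ≤ 4)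
    (hb : c.testBit (64 * dy + dx) = true) :
    (τ.1 + ((t % 64 : ℕ) : ℤ) + (dx : ℤ), τ.2 + ((t / 64 : ℕ) : ℤ) + (dy : ℤ)) ∈ cellsF τ M' := by
  have h1 : M'.testBit (64 * dy + dx + t) = true :=
    testBit_of_and_eq hsub (by rw [testBit_shiftLeft_add]; exact hb)
  have h2 := (dec_mem_cellsF (τ := τ)).2 h1
  have h3 : (64 * dy + dx + t) % 64 = t % 64 + dx := by omega
  have h4 : (64 * dy + dx + t) / 64 = t / 64 + dy := by omega
  simp only [dec, h3, h4, Nat.cast_add] at h2
  simpa only [add_assoc] using h2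

macro "snaky_cc" K:ident dx:num dy:num : tactic =>
  `(tactic| (have hK := $K $dx $dy (by norm_num) (by decide); simp at hK ⊢; first | exact hK | (convert hK using 2 <;> ring)))

theorem containsCopy_of_mask (τ : Cell) (M' t o : ℕ) (ho : o < 8) (ht : t % 64 < 59)
    (hsub : M' &&& (copyMask o <<< t) = copyMask o <<< t) :
    ContainsCopy (↑(cellsF τ M') : Set Cell) := by
  have K := copy_case τ M' t (copyMask o) ht hsub
  interval_cases o
  · refine ⟨(τ.1 + ((t % 64 : ℕ) : ℤ), τ.2 + ((t / 64 : ℕ) : ℤ)), 1, 1, Or.inl rfl, Or.inl rfl,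
      Or.inl ?_⟩
    intro p hp
    simp only [snaky, Finset.mem_insert, Finset.mem_singleton] at hp
    rcases hp with rfl | rfl | rfl | rfl | rfl | rfl
    · snaky_cc K 0 0
    · snaky_cc K 1 0
    · snaky_cc K 2 0
    · snaky_cc K 3 0
    · snaky_cc K 3 1
    · snaky_cc K 4 1
  · refine ⟨(τ.1 + ((t % 64 : ℕ) : ℤ) + 4, τ.2 + ((t / 64 : ℕ) : ℤ)), -1, 1, Or.inr rfl, Or.inl rfl,
      Or.inl ?_⟩
    intro p hp
    simp only [snaky, Finset.mem_insert, Finset.mem_singleton] at hp
    rcases hp with rfl | rfl | rfl | rfl | rfl | rfl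
    · snaky_cc K 4 0
    · snaky_cc K 3 0
    · snaky_cc K 2 0
    · snaky_cc K 1 0
    · snaky_cc K 1 1
    · snaky_cc K 0 1
  · refine ⟨(τ.1 + ((t % 64 : ℕ) : ℤ), τ.2 + ((t / 64 : ℕ) : ℤ) + 1), 1, -1, Or.inl rfl, Or.inr rfl,
      Or.inl ?_⟩
    intro p hp
    simp only [snaky, Finset.mem_insert, Finset.mem_singleton] at hp
    rcases hp with rfl | rfl | rfl | rfl | rfl | rfl
    · snaky_cc K 0 1
    · snaky_cc K 1 1
    · snaky_cc K 2 1
    · snaky_cc K 3 1
    · snaky_cc K 3 0
    · snaky_cc K 4 0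
  · refine ⟨(τ.1 + ((t % 64 : ℕ) : ℤ) + 4, τ.2 + ((t / 64 : ℕ) : ℤ) + 1), -1, -1, Or.inr rfl,
      Or.inr rfl, Or.inl ?_⟩
    intro p hp
    simp only [snaky, Finset.mem_insert, Finset.mem_singleton] at hp
    rcases hp with rfl | rfl | rfl | rfl | rfl | rfl
    · snaky_cc K 4 1
    · snaky_cc K 3 1
    · snaky_cc K 2 1
    · snaky_cc K 1 1
    · snaky_cc K 1 0
    · snaky_cc K 0 0
  · refine ⟨(τ.1 + ((t % 64 : ℕ) : ℤ), τ.2 + ((t / 64 : ℕ) : ℤ)), 1, 1, Or.inl rfl, Or.inl rfl,
      Or.inr ?_⟩
    intro p hp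
    simp only [snaky, Finset.mem_insert, Finset.mem_singleton] at hp
    rcases hp with rfl | rfl | rfl | rfl | rfl | rfl
    · snaky_cc K 0 0
    · snaky_cc K 0 1
    · snaky_cc K 0 2
    · snaky_cc K 0 3
    · snaky_cc K 1 3
    · snaky_cc K 1 4
  · refine ⟨(τ.1 + ((t % 64 : ℕ) : ℤ) + 1, τ.2 + ((t / 64 : ℕ) : ℤ)), -1, 1, Or.inr rfl, Or.inl rfl,
      Or.inr ?_⟩
    intro p hp
    simp only [snaky, Finset.mem_insert, Finset.mem_singleton] at hp
    rcases hp with rfl | rfl | rfl | rfl | rfl | rfl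
    · snaky_cc K 1 0
    · snaky_cc K 1 1
    · snaky_cc K 1 2
    · snaky_cc K 1 3
    · snaky_cc K 0 3
    · snaky_cc K 0 4
  · refine ⟨(τ.1 + ((t % 64 : ℕ) : ℤ), τ.2 + ((t / 64 : ℕ) : ℤ) + 4), 1, -1, Or.inl rfl, Or.inr rfl,
      Or.inr ?_⟩
    intro p hp
    simp only [snaky, Finset.mem_insert, Finset.mem_singleton] at hp
    rcases hp with rfl | rfl | rfl | rfl | rfl | rfl
    · snaky_cc K 0 4
    · snaky_cc K 0 3
    · snaky_cc K 0 2
    · snaky_cc K 0 1
    · snaky_cc K 1 1
    · snaky_cc K 1 0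
  · refine ⟨(τ.1 + ((t % 64 : ℕ) : ℤ) + 1, τ.2 + ((t / 64 : ℕ) : ℤ) + 4), -1, -1, Or.inr rfl,
      Or.inr rfl, Or.inr ?_⟩
    intro p hp
    simp only [snaky, Finset.mem_insert, Finset.mem_singleton] at hp
    rcases hp with rfl | rfl | rfl | rfl | rfl | rfl
    · snaky_cc K 1 4
    · snaky_cc K 1 3
    · snaky_cc K 1 2
    · snaky_cc K 1 1
    · snaky_cc K 0 1
    · snaky_cc K 0 0


/-- a proved pattern: if Maker owns `S` and Breaker owns nothing in `Z` except possibly one stone
outside `A`, Maker (to move) wins with at most `d` further stones; all bits have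
`x`-coordinate `< w`.  (`A = 0`: "Breaker to move" pattern, `A = Z`: "Maker to move" pattern.) -/
structure Lem where
  S : ℕ
  A : ℕ
  Z : ℕ
  d : ℕ
  w : ℕ

/-- binary trie of patterns -/
inductive Tbl
  | nil : Tbl
  | leaf : Lem → Tbl
  | node : Tbl → Tbl → Tbl

def Tbl.get : Tbl → ℕ → Option Lem
  | .nil, _ => none
  | .leaf l, _ => some l
  | .node l r, k => bif Nat.beq (Nat.land k 1) 0 then l.get (Nat.shiftRight k 1)
      else r.get (Nat.shiftRight k 1)

/-- certificates (Maker to move at every tree node; `cons` builds families of alternatives) -/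
inductive Cert
  | fin : ℕ → ℕ → ℕ → Cert
  | mv : ℕ → Cert → Cert
  | cons : Cert → Cert → Cert
  | ref : ℕ → ℕ → Cert

/-- `chk tb w T M d = some (a, o)`: `o` is the union and `a` the intersection of the zones of the
alternatives in `T`. -/
def chk (tb : Tbl) (w : ℕ) : Cert → ℕ → ℕ → Option (ℕ × ℕ)
  | .fin m o t, M, d =>
      bif Nat.ble 1 d && Nat.beq (M &&& 1 <<< m) 0 && Nat.blt (m % 64) w && Nat.blt (t % 64) 59
          && Nat.blt o 8 && Nat.beq ((M ||| 1 <<< m) &&& (copyMask o <<< t)) (copyMask o <<< t)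
      then some (1 <<< m, 1 <<< m) else none
  | .mv m kids, M, d =>
      bif Nat.ble 1 d && Nat.beq (M &&& 1 <<< m) 0 && Nat.blt (m % 64) w then
        match chk tb w kids (M ||| 1 <<< m) (d - 1) with
        | some (a, o) => bif Nat.beq (a &&& (M ||| 1 <<< m)) a
            then some (1 <<< m ||| o, 1 <<< m ||| o) else none
        | none => none
      else none
  | .cons hd tl, M, d =>
      match chk tb w hd M d with
      | some (a1, o1) =>
        match chk tb w tl M d with
        | some (a2, o2) => some (a1 &&& a2, o1 ||| o2)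
        | none => none
      | none => none
  | .ref k t, M, d =>
      match tb.get k with
      | some l =>
        bif Nat.ble l.d d && Nat.ble (t % 64 + l.w) w && Nat.beq (M &&& (l.S <<< t)) (l.S <<< t)
        then some (l.A <<< t, l.Z <<< t) else none
      | none => none

def InW (w Z : ℕ) : Prop := ∀ i, Z.testBit i = true → i % 64 < w

def Q (τ : Cell) (d M a o : ℕ) : Prop :=
  ∀ (B₁ : Finset Cell) (b : Cell), (∀ i, o.testBit i = true → dec τ i ∉ B₁) →
    (∀ i, a.testBit i = true → dec τ i ≠ b) → MW d (cellsF τ M) (insert b B₁)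

def Lem.Valid (l : Lem) : Prop :=
  InW l.w l.S ∧ InW l.w l.Z ∧ InW l.w l.A ∧ ∀ τ : Cell, Q τ l.d l.S l.A l.Z

def Tbl.Valid (tb : Tbl) : Prop := ∀ k l, tb.get k = some l → l.Valid

theorem Tbl.valid_nil : Tbl.nil.Valid := by
  intro k l h; simp [Tbl.get] at h

theorem Tbl.valid_leaf {l : Lem} (h : l.Valid) : (Tbl.leaf l).Valid := by
  intro k l' h'
  simp only [Tbl.get, Option.some.injEq] at h'
  exact h' ▸ h

theorem Tbl.valid_node {l r : Tbl} (hl : l.Valid) (hr : r.Valid) : (Tbl.node l r).Valid := by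
  intro k x h
  simp only [Tbl.get] at h
  cases hc : Nat.beq (Nat.land k 1) 0
  · rw [hc] at h; exact hr _ _ h
  · rw [hc] at h; exact hl _ _ h

theorem inW_bit {w m : ℕ} (h : m % 64 < w) : InW w (1 <<< m) := by
  intro i hi
  rw [testBit_bit] at hi
  have : i = m := by simpa using hi
  rw [this]; exact h

theorem inW_or {w a b : ℕ} (ha : InW w a) (hb : InW w b) : InW w (a ||| b) := by
  intro i hi
  rw [Nat.testBit_or, Bool.or_eq_true] at hi
  exact hi.elim (ha i) (hb i)

theorem chk_sound (tb : Tbl) (htb : tb.Valid) (w : ℕ) (hw : w ≤ 64) (T : Cert) :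
    ∀ M d a o, chk tb w T M d = some (a, o) → InW w o ∧ InW w a ∧ ∀ τ, Q τ d M a o := by
  induction T with
  | fin m o t =>
    intro M d a z h
    simp only [chk] at h
    cases hc : (Nat.ble 1 d && Nat.beq (M &&& 1 <<< m) 0 && Nat.blt (m % 64) w &&
        Nat.blt (t % 64) 59 && Nat.blt o 8 &&
        Nat.beq ((M ||| 1 <<< m) &&& (copyMask o <<< t)) (copyMask o <<< t)) with
    | false => rw [hc] at h; simp at h
    | true =>
      rw [hc] at h
      simp only [cond_true, Option.some.injEq, Prod.mk.injEq] at h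
      obtain ⟨rfl, rfl⟩ := h
      simp only [Bool.and_eq_true, Nat.ble_eq, Nat.blt_eq] at hc
      obtain ⟨⟨⟨⟨⟨h1, h2⟩, h3⟩, h4⟩, h5⟩, h6⟩ := hc
      refine ⟨inW_bit h3, inW_bit h3, fun τ B₁ b hB hb => ?_⟩
      obtain ⟨d', rfl⟩ : ∃ d', d = d' + 1 := ⟨d - 1, by omega⟩
      have hmM : dec τ m ∉ cellsF τ M := by
        rw [dec_mem_cellsF, testBit_false_of_and_bit (Nat.eq_of_beq_eq_true h2)]; simp
      have hmB : dec τ m ∉ insert b B₁ := by
        rw [Finset.mem_insert, not_or]
        exact ⟨hb m (by simp), hB m (by simp)⟩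
      refine MW.step (dec τ m) hmM hmB (fun b' _ _ => MW.won ?_)
      rw [← cellsF_or_bit]
      exact containsCopy_of_mask τ _ t o h5 h4 (Nat.eq_of_beq_eq_true h6)
  | mv m kids ih =>
    intro M d a z h
    simp only [chk] at h
    cases hc : (Nat.ble 1 d && Nat.beq (M &&& 1 <<< m) 0 && Nat.blt (m % 64) w) with
    | false => rw [hc] at h; simp at h
    | true =>
      rw [hc] at h
      simp only [cond_true] at h
      simp only [Bool.and_eq_true, Nat.ble_eq, Nat.blt_eq] at hc
      obtain ⟨⟨h1, h2⟩, h3⟩ := hc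
      cases hk : chk tb w kids (M ||| 1 <<< m) (d - 1) with
      | none => rw [hk] at h; simp at h
      | some ao =>
        obtain ⟨a', o'⟩ := ao
        rw [hk] at h
        simp only at h
        cases ha : Nat.beq (a' &&& (M ||| 1 <<< m)) a' with
        | false => rw [ha] at h; simp at h
        | true =>
          rw [ha] at h
          simp only [cond_true, Option.some.injEq, Prod.mk.injEq] at h
          obtain ⟨rfl, rfl⟩ := h
          have ha0 : (M ||| 1 <<< m) &&& a' = a' := by
            rw [Nat.land_comm]; exact Nat.eq_of_beq_eq_true ha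
          obtain ⟨hin, _, hQ⟩ := ih _ _ _ _ hk
          refine ⟨inW_or (inW_bit h3) hin, inW_or (inW_bit h3) hin, fun τ B₁ b hB hb => ?_⟩
          obtain ⟨d', rfl⟩ : ∃ d', d = d' + 1 := ⟨d - 1, by omega⟩
          have hmM : dec τ m ∉ cellsF τ M := by
            rw [dec_mem_cellsF, testBit_false_of_and_bit (Nat.eq_of_beq_eq_true h2)]; simp
          have hmB : dec τ m ∉ insert b B₁ := by
            rw [Finset.mem_insert, not_or]
            exact ⟨hb m (by simp), hB m (by simp)⟩
          refine MW.step (dec τ m) hmM hmB (fun b' hb'M hb'm => ?_)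
          rw [← cellsF_or_bit]
          refine hQ τ (insert b B₁) b' (fun i hi => ?_) (fun i hi he => ?_)
          · rw [Finset.mem_insert, not_or]
            exact ⟨hb i (by simp [hi]), hB i (by simp [hi])⟩
          · have h5 : dec τ i ∈ cellsF τ (M ||| 1 <<< m) :=
              dec_mem_cellsF.2 (testBit_of_and_eq ha0 hi)
            rw [cellsF_or_bit, Finset.mem_insert, he] at h5
            exact h5.elim hb'm hb'M
  | cons hd tl ih1 ih2 =>
    intro M d a z h
    simp only [chk] at h
    cases h1 : chk tb w hd M d with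
    | none => rw [h1] at h; simp at h
    | some ao1 =>
      obtain ⟨a1, o1⟩ := ao1
      rw [h1] at h
      simp only at h
      cases h2 : chk tb w tl M d with
      | none => rw [h2] at h; simp at h
      | some ao2 =>
        obtain ⟨a2, o2⟩ := ao2
        rw [h2] at h
        simp only [Option.some.injEq, Prod.mk.injEq] at h
        obtain ⟨rfl, rfl⟩ := h
        obtain ⟨hin1, hia1, hQ1⟩ := ih1 _ _ _ _ h1
        obtain ⟨hin2, _, hQ2⟩ := ih2 _ _ _ _ h2
        refine ⟨inW_or hin1 hin2, fun i hi => hia1 i (by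
          rw [Nat.testBit_and, Bool.and_eq_true] at hi; exact hi.1), fun τ B₁ b hB hb => ?_⟩
        by_cases hcase : ∀ i, a1.testBit i = true → dec τ i ≠ b
        · exact hQ1 τ B₁ b (fun i hi => hB i (by simp [hi])) hcase
        · push Not at hcase
          obtain ⟨i0, hi0, rfl⟩ := hcase
          refine hQ2 τ B₁ _ (fun i hi => hB i (by simp [hi])) (fun i hi he => ?_)
          have : i = i0 := dec_inj he
          subst this
          exact hb i (by simp [hi, hi0]) rfl
  | ref k t =>
    intro M d a z h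
    simp only [chk] at h
    cases hg : tb.get k with
    | none => rw [hg] at h; simp at h
    | some l =>
      rw [hg] at h
      simp only at h
      cases hc : (Nat.ble l.d d && Nat.ble (t % 64 + l.w) w &&
          Nat.beq (M &&& (l.S <<< t)) (l.S <<< t)) with
      | false => rw [hc] at h; simp at h
      | true =>
        rw [hc] at h
        simp only [cond_true, Option.some.injEq, Prod.mk.injEq] at h
        obtain ⟨rfl, rfl⟩ := h
        simp only [Bool.and_eq_true, Nat.ble_eq] at hc
        obtain ⟨⟨h1, h2⟩, h3⟩ := hc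
        obtain ⟨hS, hZ, hA, hval⟩ := htb k l hg
        refine ⟨?_, ?_, fun τ B₁ b hB hb => ?_⟩
        · intro j hj
          rw [Nat.testBit_shiftLeft, Bool.and_eq_true, decide_eq_true_eq] at hj
          have := hZ _ hj.2
          omega
        · intro j hj
          rw [Nat.testBit_shiftLeft, Bool.and_eq_true, decide_eq_true_eq] at hj
          have := hA _ hj.2
          omega
        · have hmw := hval (τ.1 + ((t % 64 : ℕ) : ℤ), τ.2 + ((t / 64 : ℕ) : ℤ)) B₁ b (by
            intro i hi
            have hlt := hZ i hi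
            rw [← dec_shift τ i t (by omega)]
            exact hB _ (by rw [testBit_shiftLeft_add]; exact hi)) (by
            intro i hi
            have hlt := hA i hi
            rw [← dec_shift τ i t (by omega)]
            exact hb _ (by rw [testBit_shiftLeft_add]; exact hi))
          refine (hmw.mono ?_ (Finset.Subset.refl _)).mono_d h1
          intro c hc
          obtain ⟨i, hi, rfl⟩ := mem_cellsF.1 hc
          have hlt := hS i hi
          rw [← dec_shift τ i t (by omega), dec_mem_cellsF]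
          exact testBit_of_and_eq (Nat.eq_of_beq_eq_true h3) (by rw [testBit_shiftLeft_add]; exact hi)

def maskOf : List ℕ → ℕ
  | [] => 0
  | i :: l => 1 <<< i ||| maskOf l

theorem inW_maskOf {w : ℕ} : ∀ {l : List ℕ}, (l.all fun i => Nat.blt (i % 64) w) = true →
    InW w (maskOf l)
  | [], _ => by intro i hi; simp [maskOf] at hi
  | i :: l, h => by
    simp only [List.all_cons, Bool.and_eq_true, Nat.blt_eq] at h
    exact inW_or (inW_bit h.1) (inW_maskOf h.2)

/-- the check that establishes a pattern from its certificate -/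
def lemChk (tb : Tbl) (stones : List ℕ) (T : Cert) (l : Lem) : Bool :=
  (stones.all fun i => Nat.blt (i % 64) l.w) && Nat.beq (maskOf stones) l.S && Nat.ble l.w 64 &&
    match chk tb l.w T l.S l.d with
    | some (a, o) => Nat.beq a l.A && Nat.beq o l.Z
    | none => false

theorem MW_of_Q {τ : Cell} {d M a o : ℕ} (h : Q τ d M a o) (B₁ : Finset Cell)
    (hB : ∀ i, o.testBit i = true → dec τ i ∉ B₁) : MW d (cellsF τ M) B₁ := by
  obtain ⟨b, hb, _⟩ := exists_free (cellsF τ a) ∅
  refine (h B₁ b hB (fun i hi he => hb ?_)).mono (Finset.Subset.refl _) (Finset.subset_insert _ _)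
  rw [← he, dec_mem_cellsF]; exact hi

theorem Lem.valid_of_chk (tb : Tbl) (htb : tb.Valid) (stones : List ℕ) (T : Cert) (l : Lem)
    (h : lemChk tb stones T l = true) : l.Valid := by
  simp only [lemChk, Bool.and_eq_true, Nat.ble_eq] at h
  obtain ⟨⟨⟨h1, h2⟩, h3⟩, h4⟩ := h
  cases hc : chk tb l.w T l.S l.d with
  | none => rw [hc] at h4; simp at h4
  | some ao =>
    obtain ⟨a, o⟩ := ao
    rw [hc] at h4
    simp only [Bool.and_eq_true] at h4
    have ha : a = l.A := Nat.eq_of_beq_eq_true h4.1
    have ho : o = l.Z := Nat.eq_of_beq_eq_true h4.2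
    subst ha ho
    obtain ⟨hin, hia, hQ⟩ := chk_sound tb htb l.w h3 T _ _ _ _ hc
    exact ⟨(Nat.eq_of_beq_eq_true h2) ▸ inW_maskOf h1, hin, hia, hQ⟩

theorem MW_of_chk (tb : Tbl) (htb : tb.Valid) (T : Cert)
    (h : (chk tb 64 T 0 21).isSome = true) : MW 21 ∅ ∅ := by
  cases hc : chk tb 64 T 0 21 with
  | none => rw [hc] at h; simp at h
  | some ao =>
    obtain ⟨a, o⟩ := ao
    obtain ⟨_, _, hQ⟩ := chk_sound tb htb 64 le_rfl T _ _ _ _ hc
    have := MW_of_Q (hQ (0, 0)) ∅ (by simp)
    rwa [cellsF_zero] at this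

end Crest.Agent.SnakyAux
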