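import Crest.Statements.S0047

set_option autoImplicit false

/-!
Semantic layer for the Snaky Maker-Breaker game: the predicate `MW d M B`
("Maker, to move, forces a copy with at most `d` further stones") and the glue
to the policy formulation of the frozen statement.
-/

namespace Crest.Agent.SnakyAux

open Crest.CombinatoricsR.PolyominoGame

abbrev Cell := ℤ × ℤ

theorem containsCopy_mono {X Y : Set Cell} (h : X ⊆ Y) (hX : ContainsCopy X) : ContainsCopy Y := by
  obtain ⟨t, e1, e2, h1, h2, h3⟩ := hX
  refine ⟨t, e1, e2, h1, h2, ?_⟩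
  rcases h3 with h3 | h3
  · exact Or.inl (fun p hp => h (h3 p hp))
  · exact Or.inr (fun p hp => h (h3 p hp))

/-- Maker (to move) forces a copy of Snaky using at most `d` further stones; `M` are Maker's
stones, `B` Breaker's.  Breaker's replies are only required to avoid Maker's stones. -/
inductive MW : ℕ → Finset Cell → Finset Cell → Prop
  | won {d : ℕ} {M B : Finset Cell} : ContainsCopy (↑M : Set Cell) → MW d M B
  | step {d : ℕ} {M B : Finset Cell} (m : Cell) : m ∉ M → m ∉ B →
      (∀ b : Cell, b ∉ M → b ≠ m → MW d (insert m M) (insert b B)) → MW (d + 1) M B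

theorem exists_free (M B : Finset Cell) : ∃ m : Cell, m ∉ M ∧ m ∉ B := by
  obtain ⟨m, hm⟩ := Infinite.exists_notMem_finset (M ∪ B)
  exact ⟨m, fun h => hm (Finset.mem_union_left _ h), fun h => hm (Finset.mem_union_right _ h)⟩

theorem MW.mono {d : ℕ} {M B : Finset Cell} (h : MW d M B) :
    ∀ {M' B' : Finset Cell}, M ⊆ M' → B' ⊆ B → MW d M' B' := by
  induction h with
  | won hc =>
    intro M' B' hM _
    exact MW.won (containsCopy_mono (by exact_mod_cast hM) hc)
  | step m hmM hmB _ ih =>
    intro M' B' hM hB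
    by_cases hm : m ∈ M'
    · obtain ⟨m', hm'M, hm'B⟩ := exists_free M' B'
      refine MW.step m' hm'M hm'B (fun b hb _ => ?_)
      refine ih b (fun h => hb (hM h)) (by rintro rfl; exact hb hm) ?_ ?_
      · intro x hx
        rcases Finset.mem_insert.1 hx with rfl | hx
        · exact Finset.mem_insert_of_mem hm
        · exact Finset.mem_insert_of_mem (hM hx)
      · exact Finset.insert_subset_insert _ hB
    · refine MW.step m hm (fun h => hmB (hB h)) (fun b hb hbm => ?_)
      exact ih b (fun h => hb (hM h)) hbm (Finset.insert_subset_insert _ hM)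
        (Finset.insert_subset_insert _ hB)

theorem MW.succ {d : ℕ} {M B : Finset Cell} (h : MW d M B) : MW (d + 1) M B := by
  induction h with
  | won hc => exact MW.won hc
  | step m hmM hmB _ ih => exact MW.step m hmM hmB ih

theorem MW.mono_d {d d' : ℕ} {M B : Finset Cell} (h : MW d M B) (hd : d ≤ d') : MW d' M B := by
  induction hd with
  | refl => exact h
  | step _ ih => exact ih.succ

theorem MW.zero {M B : Finset Cell} (h : MW 0 M B) : ContainsCopy (↑M : Set Cell) := by
  cases h with
  | won hc => exact hc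

theorem MW.exists_move {d : ℕ} {M B : Finset Cell} (h : MW (d + 1) M B) :
    ∃ m : Cell, m ∉ M ∧ m ∉ B ∧
      ∀ b : Cell, b ∉ M → b ≠ m → MW d (insert m M) (insert b B) := by
  cases h with
  | won hc =>
    obtain ⟨m, hM, hB⟩ := exists_free M B
    refine ⟨m, hM, hB, fun b _ _ => MW.won (containsCopy_mono ?_ hc)⟩
    exact_mod_cast Finset.subset_insert m M
  | step m hmM hmB hs => exact ⟨m, hmM, hmB, hs⟩

open Classical in
/-- Maker's move in a position with `d` stones left. -/
noncomputable def pick (d : ℕ) (M B : Finset Cell) : Cell :=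
  if h : ∃ m : Cell, m ∉ M ∧ m ∉ B ∧
      ∀ b : Cell, b ∉ M → b ≠ m → MW (d - 1) (insert m M) (insert b B) then h.choose
  else (exists_free M B).choose

theorem pick_free (d : ℕ) (M B : Finset Cell) : pick d M B ∉ M ∧ pick d M B ∉ B := by
  unfold pick
  split_ifs with h
  · exact ⟨h.choose_spec.1, h.choose_spec.2.1⟩
  · exact (exists_free M B).choose_spec

theorem pick_spec {d : ℕ} {M B : Finset Cell} (h : MW (d + 1) M B) :
    ∀ b : Cell, b ∉ M → b ≠ pick (d + 1) M B →
      MW d (insert (pick (d + 1) M B) M) (insert b B) := by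
  have h' : ∃ m : Cell, m ∉ M ∧ m ∉ B ∧
      ∀ b : Cell, b ∉ M → b ≠ m → MW (d + 1 - 1) (insert m M) (insert b B) := h.exists_move
  unfold pick
  rw [dif_pos h']
  exact h'.choose_spec.2.2

/-- game state after a list of Breaker replies: (stones left, Maker's stones, Breaker's stones) -/
noncomputable def stStep (s : ℕ × Finset Cell × Finset Cell) (b : Cell) :
    ℕ × Finset Cell × Finset Cell :=
  (s.1 - 1, insert (pick s.1 s.2.1 s.2.2) s.2.1, insert b s.2.2)

noncomputable def stL (l : List Cell) : ℕ × Finset Cell × Finset Cell :=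
  l.foldl stStep (21, ∅, ∅)

noncomputable def policy (l : List Cell) : Cell :=
  pick (stL l).1 (stL l).2.1 (stL l).2.2

theorem stL_succ (b : ℕ → Cell) (k : ℕ) :
    stL ((List.range (k + 1)).map b) = stStep (stL ((List.range k).map b)) (b k) := by
  simp [stL, List.range_succ, List.foldl_append]

theorem result_of_MW (h : MW 21 ∅ ∅) :
    ∃ σ : List (ℤ × ℤ) → ℤ × ℤ, ∀ b : ℕ → ℤ × ℤ,
      (∀ k : ℕ, k < 20 →
        (∀ j : ℕ, j ≤ k → b k ≠ makerClaim σ b j) ∧
        (∀ j : ℕ, j < k → b k ≠ b j)) →
      (∀ k : ℕ, k ≤ 20 →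
        (∀ j : ℕ, j < k → makerClaim σ b k ≠ makerClaim σ b j) ∧
        (∀ j : ℕ, j < k → makerClaim σ b k ≠ b j)) ∧
      ContainsCopy {c | ∃ j : ℕ, j ≤ 20 ∧ c = makerClaim σ b j} := by
  refine ⟨policy, fun b hb => ?_⟩
  set L : ℕ → List Cell := fun k => (List.range k).map b with hL
  have hclaim : ∀ k, makerClaim policy b k = pick (stL (L k)).1 (stL (L k)).2.1 (stL (L k)).2.2 :=
    fun k => rfl
  -- invariant
  have inv : ∀ k, k ≤ 20 →
      (stL (L k)).1 = 21 - k ∧
      (stL (L k)).2.1 = (Finset.range k).image (makerClaim policy b) ∧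
      (stL (L k)).2.2 = (Finset.range k).image b ∧
      MW (21 - k) (stL (L k)).2.1 (stL (L k)).2.2 := by
    intro k
    induction k with
    | zero =>
      intro _
      refine ⟨rfl, ?_, ?_, ?_⟩
      · simp [hL, stL]
      · simp [hL, stL]
      · simpa [hL, stL] using h
    | succ k ih =>
      intro hk
      obtain ⟨h1, h2, h3, h4⟩ := ih (by omega)
      have hs : stL (L (k + 1)) = stStep (stL (L k)) (b k) := stL_succ b k
      have hd : 21 - k = (20 - k) + 1 := by omega
      refine ⟨?_, ?_, ?_, ?_⟩
      · rw [hs]; simp only [stStep]; omega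
      · rw [hs]; simp only [stStep]
        rw [Finset.range_add_one, Finset.image_insert, ← h2, hclaim k]
      · rw [hs]; simp only [stStep]
        rw [Finset.range_add_one, Finset.image_insert, ← h3]
      · rw [hs]; simp only [stStep]
        have hk' : 21 - (k + 1) = 20 - k := by omega
        rw [hk', h1, hd]
        rw [hd] at h4
        apply pick_spec h4
        · rw [h2]
          intro hmem
          obtain ⟨j, hj, hje⟩ := Finset.mem_image.1 hmem
          exact (hb k (by omega)).1 j (by have := Finset.mem_range.1 hj; omega) hje.symm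
        · have := (hb k (by omega)).1 k le_rfl
          rw [hclaim k, h1, hd] at this
          exact this
  refine ⟨fun k hk => ?_, ?_⟩
  · obtain ⟨_, h2, h3, _⟩ := inv k hk
    have hf := pick_free (stL (L k)).1 (stL (L k)).2.1 (stL (L k)).2.2
    rw [← hclaim k, h2, h3] at hf
    refine ⟨fun j hj he => hf.1 ?_, fun j hj he => hf.2 ?_⟩
    · exact Finset.mem_image.2 ⟨j, Finset.mem_range.2 hj, he.symm⟩
    · exact Finset.mem_image.2 ⟨j, Finset.mem_range.2 hj, he.symm⟩
  · obtain ⟨h1, h2, h3, h4⟩ := inv 20 le_rfl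
    have h4' : MW (0 + 1) (stL (L 20)).2.1 (stL (L 20)).2.2 := h4
    have hsp := pick_spec h4'
    obtain ⟨b', hb'M, _⟩ := exists_free
      (insert (pick (0 + 1) (stL (L 20)).2.1 (stL (L 20)).2.2) (stL (L 20)).2.1) ∅
    have hw := (hsp b' (fun h => hb'M (Finset.mem_insert_of_mem h))
      (fun h => hb'M (h ▸ Finset.mem_insert_self _ _))).zero
    refine containsCopy_mono ?_ hw
    intro c hc
    have hc' := Finset.mem_coe.1 hc
    rcases Finset.mem_insert.1 hc' with rfl | hc'
    · refine ⟨20, le_rfl, ?_⟩
      rw [hclaim 20, h1]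
    · rw [h2] at hc'
      obtain ⟨j, hj, rfl⟩ := Finset.mem_image.1 hc'
      exact ⟨j, by have := Finset.mem_range.1 hj; omega, rfl⟩

end Crest.Agent.SnakyAux
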