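import Crest.Agent.S0047_aux.SymLem
import Crest.Agent.S0047_aux.L0
set_option autoImplicit false
namespace Crest.Agent.SnakyAux
def l1 : Lem := ⟨11781361728633673532894774498354952494238773929196300355071513798753168641589311119865182769801300280680127783231251635087526446289021607771691249214388576215221396663491984443067742263787264024212477244347842938066577043117995647400274369612403653814737339068225047641453182709824206687753689912418253153056587776, 580261609791985972009586173774276615462802917856050947897967077562358838283141871638791467090712372292037805476216009543735555792232279364333836387093819902130776723844689250322885809493255512078008087263868947926856738443464162063617652148812672295535961199021472181451549587560031800447018926695526686807080881472781608277339531463861173720700087593086995649474532352601309427838899443539657052717138529802221836735465706749952, 580261609791985972009586173774276615462802917856050947897967077562358838283141871638791467090712372292037805476216009543735555792232279364333836387093819902130776723844689250322885809493255512078008087263868947926856738443464162063617652148812672295535961199021472181451549587560031800447018926695526686807080881472781608277339531463861173720700087593086995649474532352601309427838899443539657052717138529802221836735465706749952,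 19, 33⟩
theorem l1_valid : l1.Valid :=
  Lem.valid_tr 3 33 [1040] [656, 658, 718, 719, 720, 721, 722, 781, 782, 783, 784, 785, 786, 787, 843, 844, 845, 846, 847, 848, 849, 850, 851, 852, 853, 907, 908, 909, 910, 911, 912, 913, 914, 915, 916, 970, 971, 972, 973, 974, 975, 976, 977, 978, 979, 980, 981, 1035, 1036, 1037, 1038, 1039, 1041, 1042, 1043, 1098, 1099, 1100, 1101, 1102, 1103, 1104, 1105, 1106, 1107, 1108, 1162, 1163, 1164, 1165, 1166, 1167, 1168, 1169, 1170, 1171, 1172, 1228, 1229, 1230, 1231, 1232, 1233, 1234, 1235, 1293, 1294, 1295, 1296, 1297, 1298, 1299, 1359, 1360, 1361] [656, 658, 718, 719, 720, 721, 722, 781, 782, 783, 784, 785, 786, 787, 843, 844, 845, 846, 847, 848, 849, 850, 851, 852, 853, 907, 908, 909, 910, 911, 912, 913, 914, 915, 916, 970, 971, 972, 973, 974, 975, 976, 977, 978, 979, 980, 981, 1035, 1036, 1037, 1038, 1039, 1041, 1042, 1043, 1098, 1099, 1100, 1101, 1102, 1103, 1104, 1105, 1106, 1107, 1108, 1162, 1163, 1164, 1165, 1166, 1167, 1168, 1169, 1170, 1171, 1172, 1228, 1229, 1230, 1231, 1232, 1233, 1234, 1235, 1293, 1294, 1295, 1296, 1297, 1298, 1299, 1359, 1360, 1361] l0 l1 l0_valid (by decide +kernel)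
end Crest.Agent.SnakyAux
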