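import Crest.Agent.S0047_aux.SymLem
import Crest.Agent.S0047_aux.L25
set_option autoImplicit false
namespace Crest.Agent.SnakyAux
def l52 : Lem := ⟨11781361728633673532894774498354952494238773929196300355071513798753168641589311119865182769801300280680127783231251635087526446289021607771691249214388576215221396663491984443067742263787264024212477244347842938066577043117995647400274369612403653814737339068225047641453182709824206687753689912418253153056587776, 3017360370918327053633878298989748205790294496075393311339122139366254387703647177037389252309876648743462520655950402219790320043779431357332220205835308582103351224727361846564959366159079809599398645345024213369956189969640255300555310556428563623245653701724415356033861061368831153764010446469974863528532393464597817967346073184118486041435309710296727727803147593704388319601095997939325508025537304741866878534032505700352, 3017360370918327053633878298989748205790294496075393311339122139366254387703647177037389252309876648743462520655950402219790320043779431357332220205835308582103351224727361846564959366159079809599398645345024213369956189969640255300555310556428563623245653701724415356033861061368831153764010446469974863528532393464597817967346073184118486041435309710296727727803147593704388319601095997939325508025537304741866878534032505700352,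 20, 33⟩
theorem l52_valid : l52.Valid :=
  Lem.valid_tr 2 33 [1040] [655, 657, 658, 717, 718, 719, 720, 721, 722, 781, 782, 783, 784, 785, 786, 787, 843, 844, 845, 846, 847, 848, 849, 850, 851, 852, 907, 908, 909, 910, 911, 912, 913, 914, 915, 916, 970, 971, 972, 973, 974, 975, 976, 977, 978, 979, 980, 981, 1034, 1035, 1036, 1037, 1038, 1039, 1041, 1042, 1043, 1044, 1045, 1099, 1100, 1101, 1102, 1103, 1104, 1105, 1106, 1107, 1108, 1162, 1163, 1164, 1165, 1166, 1167, 1168, 1169, 1171, 1172, 1173, 1227, 1228, 1229, 1230, 1231, 1232, 1233, 1234, 1293, 1294, 1295, 1296, 1297, 1357, 1358, 1359, 1360, 1361, 1421, 1423, 1425] [655, 657, 658, 717, 718, 719, 720, 721, 722, 781, 782, 783, 784, 785, 786, 787, 843, 844, 845, 846, 847, 848, 849, 850, 851, 852, 907, 908, 909, 910, 911, 912, 913, 914, 915, 916, 970, 971, 972, 973, 974, 975, 976, 977, 978, 979, 980, 981, 1034, 1035, 1036, 1037, 1038, 1039, 1041, 1042, 1043, 1044, 1045, 1099, 1100, 1101, 1102, 1103, 1104, 1105, 1106, 1107, 1108, 1162, 1163, 1164, 1165, 1166, 1167, 1168, 1169, 1171, 1172, 1173, 1227, 1228, 1229, 1230, 1231, 1232, 1233, 1234, 1293, 1294, 1295, 1296, 1297, 1357, 1358, 1359, 1360, 1361, 1421, 1423, 1425] l25 l52 l25_valid (by decide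 +kernel)
end Crest.Agent.SnakyAux
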