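import Crest.Agent.S0047_aux.SymLem
import Crest.Agent.S0047_aux.L2
set_option autoImplicit false
namespace Crest.Agent.SnakyAux
def l53 : Lem := ⟨11781361728633673532894774498354952494238773929196300355071513798753168641589311119865182769801300280680127783231251635087526446289021607771691249214388576215221396663491984443067742263787264024212477244347842938066577043117995647400274369612403653814737339068225047641453182709824206687753689912418253153056587776, 1276575541542369138388375295610195377341972909775223530733266242258175701304634186750654713434837841025076224119877238067410876888035259526083134513120337775217817057968986304187844872335848724677973802244676350864789220284194328844214010409983994313133842896748305596206606178150606804881680528610504694134407208905070778889025016337236130120492629539879189992857351324814150512673291155222411527655540198563838429341551605841920, 1276575541542369138388375295610195377341972909775223530733266242258175701304634186750654713434837841025076224119877238067410876888035259526083134513120337775217817057968986304187844872335848724677973802244676350864789220284194328844214010409983994313133842896748305596206606178150606804881680528610504694134407208905070778889025016337236130120492629539879189992857351324814150512673291155222411527655540198563838429341551605841920,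 18, 33⟩
theorem l53_valid : l53.Valid :=
  Lem.valid_tr 3 33 [1040] [655, 657, 658, 717, 718, 719, 720, 721, 722, 781, 782, 783, 784, 785, 786, 787, 843, 844, 845, 846, 847, 848, 849, 850, 851, 852, 907, 908, 909, 910, 911, 912, 913, 914, 915, 916, 970, 971, 972, 973, 974, 975, 976, 977, 978, 979, 980, 981, 1034, 1035, 1036, 1037, 1038, 1039, 1041, 1042, 1043, 1044, 1045, 1098, 1099, 1100, 1101, 1102, 1103, 1104, 1105, 1106, 1107, 1108, 1162, 1163, 1164, 1165, 1166, 1167, 1168, 1169, 1170, 1226, 1227, 1228, 1229, 1230, 1231, 1232, 1233, 1234, 1235, 1293, 1294, 1295, 1296, 1297, 1358, 1359, 1360, 1361, 1423, 1425] [655, 657, 658, 717, 718, 719, 720, 721, 722, 781, 782, 783, 784, 785, 786, 787, 843, 844, 845, 846, 847, 848, 849, 850, 851, 852, 907, 908, 909, 910, 911, 912, 913, 914, 915, 916, 970, 971, 972, 973, 974, 975, 976, 977, 978, 979, 980, 981, 1034, 1035, 1036, 1037, 1038, 1039, 1041, 1042, 1043, 1044, 1045, 1098, 1099, 1100, 1101, 1102, 1103, 1104, 1105, 1106, 1107, 1108, 1162, 1163, 1164, 1165, 1166, 1167, 1168, 1169, 1170, 1226, 1227, 1228, 1229, 1230, 1231, 1232, 1233, 1234, 1235, 1293, 1294, 1295, 1296, 1297, 1358, 1359, 1360, 1361, 1423, 1425] l2 l53 l2_valid (by decide +kernel)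
end Crest.Agent.SnakyAux
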