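import Crest.Agent.S0047_aux.SymLem
import Crest.Agent.S0047_aux.L49
set_option autoImplicit false
namespace Crest.Agent.SnakyAux
def l57 : Lem := ⟨11781361728633673532894774498354952494238773929196300355071513798753168641589311119865182769801300280680127783231251635087526446289021607771691249214388576215221396663491984443067742263787264024212477244347842938066577043117995647400274369612403653814737339068225047641453182709824206687753689912418253153056587776, 121105772854683394372293059616265487842296566811470530703496017372935743700450548895609384473805777140482812351543056864080169117769535373356254229089244395605899481484742145344171025951818380128877766567100811866882010549770042937529049401696061163210966670080744501731797928645857736218435550870360024458548715591813589218466103892222376322557846491677896300057512636530112690756474522345965154453999602106368, 121105772854683394372293059616265487842296566811470530703496017372935743700450548895609384473805777140482812351543056864080169117769535373356254229089244395605899481484742145344171025951818380128877766567100811866882010549770042937529049401696061163210966670080744501731797928645857736218435550870360024458548715591813589218466103892222376322557846491677896300057512636530112690756474522345965154453999602106368,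 20, 33⟩
theorem l57_valid : l57.Valid :=
  Lem.valid_tr 4 33 [1040] [589, 591, 593, 653, 654, 655, 656, 657, 658, 715, 716, 717, 718, 719, 720, 721, 722, 723, 778, 779, 780, 781, 782, 783, 784, 785, 786, 787, 788, 789, 842, 843, 844, 845, 846, 847, 848, 849, 850, 851, 852, 905, 906, 907, 908, 909, 910, 911, 912, 913, 914, 915, 916, 917, 969, 970, 971, 972, 973, 974, 975, 976, 977, 978, 979, 980, 981, 1033, 1034, 1035, 1036, 1037, 1038, 1039, 1041, 1042, 1097, 1098, 1099, 1100, 1101, 1102, 1103, 1104, 1105, 1106, 1107, 1108, 1162, 1163, 1164, 1165, 1166, 1167, 1168, 1169, 1170, 1171, 1172, 1173, 1226, 1227, 1228, 1229, 1230, 1231, 1232, 1233, 1234, 1235, 1236, 1291, 1292, 1293, 1294, 1295, 1296, 1297, 1298, 1299, 1300, 1356, 1357, 1358, 1359, 1360, 1361, 1362, 1363, 1421, 1423, 1424, 1425, 1427, 1487, 1489] [589, 591, 593, 653, 654, 655, 656, 657, 658, 715, 716, 717, 718, 719, 720, 721, 722, 723, 778, 779, 780, 781, 782, 783, 784, 785, 786, 787, 788, 789, 842, 843, 844, 845, 846, 847, 848, 849, 850, 851, 852, 905, 906, 907, 908, 909, 910, 911, 912, 913, 914, 915, 916, 917, 969, 970, 971, 972, 973, 974, 975, 976, 977, 978, 979, 980, 981, 1033, 1034, 1035,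 1036, 1037, 1038, 1039, 1041, 1042, 1097, 1098, 1099, 1100, 1101, 1102, 1103, 1104, 1105, 1106, 1107, 1108, 1162, 1163, 1164, 1165, 1166, 1167, 1168, 1169, 1170, 1171, 1172, 1173, 1226, 1227, 1228, 1229, 1230, 1231, 1232, 1233, 1234, 1235, 1236, 1291, 1292, 1293, 1294, 1295, 1296, 1297, 1298, 1299, 1300, 1356, 1357, 1358, 1359, 1360, 1361, 1362, 1363, 1421, 1423, 1424, 1425, 1427, 1487, 1489] l49 l57 l49_valid (by decide +kernel)
end Crest.Agent.SnakyAux
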