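import Crest.Agent.S0047_aux.SymLem
import Crest.Agent.S0047_aux.L63
set_option autoImplicit false
namespace Crest.Agent.SnakyAux
def l65 : Lem := ⟨11781361728633673532894774498354952494238773929196300355071513798753168641589311119865182769801300280680127783231251635087526446289021607771691249214388576215221396663491984443067742263787264024212477244347842938066577043117995647400274369612403653814737339068225047641453182709824206687753689912418253153056587776, 197452794013370989724453154929699399995989001240072840654372788098782624944753639795043683472093038963047767735975045854403131741671452375790295111878822412573508223799392636297841792891800086147949745872124815256767077192761614546334325568469363747751674337146804505721019097364633941276000190073288552541129454226992630341760620265416416693846176472394603161980495954952584975325602466245843119895054699687174001917451314192302310325486415299034780918696149359001600, 197452794013370989724453154929699399995989001240072840654372788098782624944753639795043683472093038963047767735975045854403131741671452375790295111878822412573508223799392636297841792891800086147949745872124815256767077192761614546334325568469363747751674337146804505721019097364633941276000190073288552541129454226992630341760620265416416693846176472394603161980495954952584975325602466245843119895054699687174001917451314192302310325486415299034780918696149359001600,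 20, 33⟩
theorem l65_valid : l65.Valid :=
  Lem.valid_tr 5 33 [1040] [589, 652, 653, 654, 655, 656, 657, 714, 716, 717, 718, 719, 720, 721, 722, 723, 724, 777, 778, 779, 780, 781, 782, 783, 784, 785, 786, 787, 788, 789, 790, 841, 842, 843, 844, 845, 846, 847, 848, 849, 850, 851, 852, 853, 904, 905, 906, 907, 908, 909, 910, 911, 912, 913, 914, 915, 916, 917, 918, 969, 970, 971, 972, 973, 974, 975, 976, 977, 978, 979, 980, 981, 982, 1032, 1033, 1034, 1035, 1036, 1037, 1038, 1039, 1041, 1042, 1043, 1044, 1045, 1097, 1098, 1099, 1100, 1101, 1102, 1103, 1104, 1105, 1107, 1108, 1109, 1161, 1162, 1163, 1164, 1165, 1166, 1167, 1168, 1169, 1170, 1171, 1172, 1226, 1227, 1228, 1229, 1230, 1231, 1232, 1233, 1234, 1235, 1236, 1290, 1291, 1292, 1293, 1294, 1295, 1296, 1297, 1298, 1355, 1356, 1357, 1358, 1359, 1360, 1361, 1362, 1420, 1421, 1422, 1423, 1424, 1426] [589, 652, 653, 654, 655, 656, 657, 714, 716, 717, 718, 719, 720, 721, 722, 723, 724, 777, 778, 779, 780, 781, 782, 783, 784, 785, 786, 787, 788, 789, 790, 841, 842, 843, 844, 845, 846, 847, 848, 849, 850, 851, 852, 853, 904, 905, 906, 907, 908, 909, 910, 911, 912, 913, 914, 915, 916, 917, 918, 969, 970, 971, 972,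 973, 974, 975, 976, 977, 978, 979, 980, 981, 982, 1032, 1033, 1034, 1035, 1036, 1037, 1038, 1039, 1041, 1042, 1043, 1044, 1045, 1097, 1098, 1099, 1100, 1101, 1102, 1103, 1104, 1105, 1107, 1108, 1109, 1161, 1162, 1163, 1164, 1165, 1166, 1167, 1168, 1169, 1170, 1171, 1172, 1226, 1227, 1228, 1229, 1230, 1231, 1232, 1233, 1234, 1235, 1236, 1290, 1291, 1292, 1293, 1294, 1295, 1296, 1297, 1298, 1355, 1356, 1357, 1358, 1359, 1360, 1361, 1362, 1420, 1421, 1422, 1423, 1424, 1426] l63 l65 l63_valid (by decide +kernel)
end Crest.Agent.SnakyAux
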