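import Crest.Agent.S0047_aux.SymLem
import Crest.Agent.S0047_aux.L76
set_option autoImplicit false
namespace Crest.Agent.SnakyAux
def l77 : Lem := ⟨11781361728633673532894774498354952494238773929196300355071513798753168641589311119865182769801300280680127783231251635087526446289021607771691249214388576215221396663491984443067742263787264024212477244347842938066577043117995647400274369612403653814737339068225047641453182709824206687753689912418253153056587776, 2913888926242835311850553336443772198028325755123862374208743802094977707705435456465716550985401343061322153334244518164456109205440189460979731312164977668710501234474245156569787301994383661549997097174257119037611480461146645504922542988272656305101475266984636829185123242597864916310957869978763399608729101669399511816138110375831065002004061534977802653933611145475221170432079301567931363141530226725282686166793256157623158797644809417000949389161388410526515577927840571588608, 2913888926242835311850553336443772198028325755123862374208743802094977707705435456465716550985401343061322153334244518164456109205440189460979731312164977668710501234474245156569787301994383661549997097174257119037611480461146645504922542988272656305101475266984636829185123242597864916310957869978763399608729101669399511816138110375831065002004061534977802653933611145475221170432079301567931363141530226725282686166793256157623158797644809417000949389161388410526515577927840571588608,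 20, 33⟩
theorem l77_valid : l77.Valid :=
  Lem.valid_tr 3 33 [1040] [464, 524, 526, 527, 528, 587, 588, 589, 590, 591, 592, 593, 594, 595, 596, 651, 652, 653, 654, 655, 656, 657, 658, 659, 660, 714, 715, 716, 717, 718, 719, 720, 721, 722, 723, 724, 725, 778, 779, 780, 781, 782, 783, 784, 785, 786, 787, 788, 789, 790, 841, 842, 843, 844, 845, 846, 847, 848, 849, 850, 851, 852, 853, 854, 855, 905, 906, 907, 908, 909, 910, 911, 912, 913, 914, 915, 916, 917, 918, 919, 969, 970, 971, 972, 973, 974, 975, 976, 977, 978, 979, 980, 981, 982, 983, 1033, 1034, 1035, 1036, 1037, 1038, 1039, 1041, 1042, 1043, 1044, 1045, 1046, 1098, 1099, 1100, 1101, 1102, 1103, 1104, 1106, 1107, 1108, 1109, 1110, 1161, 1162, 1163, 1164, 1165, 1166, 1167, 1168, 1169, 1170, 1171, 1172, 1173, 1174, 1226, 1227, 1228, 1229, 1230, 1231, 1232, 1233, 1234, 1235, 1236, 1237, 1238, 1289, 1290, 1291, 1292, 1293, 1294, 1295, 1296, 1297, 1298, 1299, 1300, 1301, 1302, 1357, 1358, 1359, 1360, 1361, 1362, 1363, 1364, 1421, 1425, 1426, 1427] [464, 524, 526, 527, 528, 587, 588, 589, 590, 591, 592, 593, 594, 595, 596, 651, 652, 653, 654, 655, 656, 657, 658, 659, 660, 714, 715, 716, 717,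 718, 719, 720, 721, 722, 723, 724, 725, 778, 779, 780, 781, 782, 783, 784, 785, 786, 787, 788, 789, 790, 841, 842, 843, 844, 845, 846, 847, 848, 849, 850, 851, 852, 853, 854, 855, 905, 906, 907, 908, 909, 910, 911, 912, 913, 914, 915, 916, 917, 918, 919, 969, 970, 971, 972, 973, 974, 975, 976, 977, 978, 979, 980, 981, 982, 983, 1033, 1034, 1035, 1036, 1037, 1038, 1039, 1041, 1042, 1043, 1044, 1045, 1046, 1098, 1099, 1100, 1101, 1102, 1103, 1104, 1106, 1107, 1108, 1109, 1110, 1161, 1162, 1163, 1164, 1165, 1166, 1167, 1168, 1169, 1170, 1171, 1172, 1173, 1174, 1226, 1227, 1228, 1229, 1230, 1231, 1232, 1233, 1234, 1235, 1236, 1237, 1238, 1289, 1290, 1291, 1292, 1293, 1294, 1295, 1296, 1297, 1298, 1299, 1300, 1301, 1302, 1357, 1358, 1359, 1360, 1361, 1362, 1363, 1364, 1421, 1425, 1426, 1427] l76 l77 l76_valid (by decide +kernel)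
end Crest.Agent.SnakyAux
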