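import Crest.Agent.S0047_aux.Game

set_option autoImplicit false

/-!
Symmetries of the Snaky game: the reflection `gX`, the coordinate swap `gS`, invariance of
`ContainsCopy` under them and transport of `MW` along any cell bijection preserving `ContainsCopy`.
-/

namespace Crest.Agent.SnakyAux

open Crest.CombinatoricsR.PolyominoGame

/-- reflection `(x, y) ↦ (-x, y)` -/
def gX : Cell ≃ Cell where
  toFun p := (-p.1, p.2)
  invFun p := (-p.1, p.2)
  left_inv p := by simp
  right_inv p := by simp

/-- coordinate swap `(x, y) ↦ (y, x)` -/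
def gS : Cell ≃ Cell where
  toFun p := (p.2, p.1)
  invFun p := (p.2, p.1)
  left_inv p := by simp
  right_inv p := by simp

@[simp] theorem gX_apply (p : Cell) : gX p = (-p.1, p.2) := rfl
@[simp] theorem gS_apply (p : Cell) : gS p = (p.2, p.1) := rfl

theorem containsCopy_gX {X : Set Cell} (h : ContainsCopy X) : ContainsCopy (gX '' X) := by
  obtain ⟨t, e1, e2, h1, h2, h3⟩ := h
  refine ⟨(-t.1, t.2), -e1, e2, ?_, h2, ?_⟩
  · rcases h1 with rfl | rfl
    · exact Or.inr rfl
    · exact Or.inl (by norm_num)
  · rcases h3 with h3 | h3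
    · refine Or.inl (fun p hp => ⟨_, h3 p hp, ?_⟩)
      simp only [gX_apply, Prod.mk.injEq, and_true]
      ring
    · refine Or.inr (fun p hp => ⟨_, h3 p hp, ?_⟩)
      simp only [gX_apply, Prod.mk.injEq, and_true]
      ring

theorem containsCopy_gS {X : Set Cell} (h : ContainsCopy X) : ContainsCopy (gS '' X) := by
  obtain ⟨t, e1, e2, h1, h2, h3⟩ := h
  refine ⟨(t.2, t.1), e2, e1, h2, h1, ?_⟩
  rcases h3 with h3 | h3
  · exact Or.inr (fun p hp => ⟨_, h3 p hp, rfl⟩)
  · exact Or.inl (fun p hp => ⟨_, h3 p hp, rfl⟩)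

theorem MW.map (g : Cell ≃ Cell) (hg : ∀ X : Set Cell, ContainsCopy X → ContainsCopy (g '' X))
    {d : ℕ} {M B : Finset Cell} (h : MW d M B) :
    MW d (M.map g.toEmbedding) (B.map g.toEmbedding) := by
  induction h with
  | won hc =>
    refine MW.won ?_
    have := hg _ hc
    simpa [Finset.coe_map] using this
  | @step d M B m hmM hmB _ ih =>
    refine MW.step (g m) ?_ ?_ (fun b hb hbm => ?_)
    · simpa using hmM
    · simpa using hmB
    · have hb' : g.symm b ∉ M := by
        intro hmem
        exact hb (Finset.mem_map.2 ⟨g.symm b, hmem, by simp⟩)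
      have hbm' : g.symm b ≠ m := by
        intro he
        exact hbm (by rw [← he]; simp)
      have := ih (g.symm b) hb' hbm'
      rw [Finset.map_insert, Finset.map_insert] at this
      simpa using this

end Crest.Agent.SnakyAux
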