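import Crest.Agent.S0047_aux.Checker
import Crest.Agent.S0047_aux.Sym

set_option autoImplicit false

/-!
Transport of a proved pattern (`Lem`) along the eight signed coordinate permutations.
-/

namespace Crest.Agent.SnakyAux

open Crest.CombinatoricsR.PolyominoGame

/-- transformed bit index inside the box w × h (bit = 64*y+x) -/
def trBit (o w h i : ℕ) : ℕ :=
  let x := i % 64
  let y := i / 64
  let x1 := bif Nat.testBit o 0 then w - 1 - x else x
  let y1 := bif Nat.testBit o 1 then h - 1 - y else y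
  bif Nat.testBit o 2 then 64 * x1 + y1 else 64 * y1 + x1

def trChk (o h : ℕ) (LS LA LZ : List ℕ) (l l' : Lem) : Bool :=
  Nat.ble l.w 64 && Nat.ble h 64 &&
  (LS.all fun i => Nat.blt (i / 64) h) && (LA.all fun i => Nat.blt (i / 64) h) &&
  (LZ.all fun i => Nat.blt (i / 64) h) &&
  Nat.beq (maskOf LS) l.S && Nat.beq (maskOf LA) l.A && Nat.beq (maskOf LZ) l.Z &&
  Nat.beq (maskOf (LS.map (trBit o l.w h))) l'.S && Nat.beq (maskOf (LA.map (trBit o l.w h))) l'.A &&
  Nat.beq (maskOf (LZ.map (trBit o l.w h))) l'.Z &&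
  Nat.beq l'.d l.d && Nat.beq l'.w (bif Nat.testBit o 2 then h else l.w)

theorem testBit_maskOf {L : List ℕ} {i : ℕ} : (maskOf L).testBit i = true ↔ i ∈ L := by
  induction L with
  | nil => simp [maskOf]
  | cons a L ih =>
    simp only [maskOf, Nat.testBit_or, testBit_bit, Bool.or_eq_true, decide_eq_true_eq, ih,
      List.mem_cons]

/-- reflection `(x, y) ↦ (x, -y)` -/
def gY : Cell ≃ Cell where
  toFun p := (p.1, -p.2)
  invFun p := (p.1, -p.2)
  left_inv p := by simp
  right_inv p := by simp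

@[simp] theorem gY_apply (p : Cell) : gY p = (p.1, -p.2) := rfl

theorem containsCopy_gY {X : Set Cell} (h : ContainsCopy X) : ContainsCopy (gY '' X) := by
  obtain ⟨t, e1, e2, h1, h2, h3⟩ := h
  refine ⟨(t.1, -t.2), e1, -e2, h1, ?_, ?_⟩
  · rcases h2 with rfl | rfl
    · exact Or.inr rfl
    · exact Or.inl (by norm_num)
  · rcases h3 with h3 | h3
    · refine Or.inl (fun p hp => ⟨_, h3 p hp, ?_⟩)
      simp only [gY_apply, Prod.mk.injEq, true_and]
      ring
    · refine Or.inr (fun p hp => ⟨_, h3 p hp, ?_⟩)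
      simp only [gY_apply, Prod.mk.injEq, true_and]
      ring

/-- `g` or the identity -/
def optE (b : Bool) (g : Cell ≃ Cell) : Cell ≃ Cell := bif b then g else Equiv.refl _

/-- the signed coordinate permutation coded by three booleans -/
def gF (fx fy sw : Bool) : Cell ≃ Cell := ((optE fx gX).trans (optE fy gY)).trans (optE sw gS)

def CCP (g : Cell ≃ Cell) : Prop := ∀ X : Set Cell, ContainsCopy X → ContainsCopy (g '' X)

theorem CCP.trans {g1 g2 : Cell ≃ Cell} (h1 : CCP g1) (h2 : CCP g2) : CCP (g1.trans g2) := by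
  intro X hX
  have := h2 _ (h1 _ hX)
  rwa [Set.image_image] at this

theorem CCP.opt {g : Cell ≃ Cell} (h : CCP g) (b : Bool) : CCP (optE b g) := by
  cases b
  · intro X hX
    simpa [optE] using hX
  · exact h

theorem ccp_gF (fx fy sw : Bool) : CCP (gF fx fy sw) :=
  ((CCP.opt (fun _ => containsCopy_gX) fx).trans (CCP.opt (fun _ => containsCopy_gY) fy)).trans
    (CCP.opt (fun _ => containsCopy_gS) sw)

theorem Q_transport (g : Cell ≃ Cell) (hg : CCP g) (tr : ℕ → ℕ) {τ τ' : Cell}
    {d S A Z S' A' Z' : ℕ}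
    (hS : ∀ i, S.testBit i = true → S'.testBit (tr i) = true ∧ dec τ' (tr i) = g (dec τ i))
    (hA : ∀ i, A.testBit i = true → A'.testBit (tr i) = true ∧ dec τ' (tr i) = g (dec τ i))
    (hZ : ∀ i, Z.testBit i = true → Z'.testBit (tr i) = true ∧ dec τ' (tr i) = g (dec τ i))
    (h : Q τ d S A Z) : Q τ' d S' A' Z' := by
  intro B₁ b hB hb
  have h1 := h (B₁.map g.symm.toEmbedding) (g.symm b) (by
    intro i hi hmem
    obtain ⟨c, hc, hce⟩ := Finset.mem_map.1 hmem
    have hce' : g.symm c = dec τ i := hce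
    obtain ⟨h1, h2⟩ := hZ i hi
    apply hB _ h1
    rw [h2, ← hce']
    simpa using hc) (by
    intro i hi he
    obtain ⟨h1, h2⟩ := hA i hi
    apply hb _ h1
    rw [h2, he]
    simp)
  have h2 := MW.map g hg h1
  refine h2.mono ?_ ?_
  · intro c hc
    obtain ⟨c0, hc0, rfl⟩ := Finset.mem_map.1 hc
    obtain ⟨i, hi, rfl⟩ := mem_cellsF.1 hc0
    obtain ⟨h1, h2⟩ := hS i hi
    show g (dec τ i) ∈ _
    rw [← h2, dec_mem_cellsF]
    exact h1
  · intro c hc
    rw [Finset.mem_map]
    refine ⟨g.symm c, ?_, by simp⟩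
    rcases Finset.mem_insert.1 hc with rfl | hc
    · exact Finset.mem_insert_self _ _
    · exact Finset.mem_insert_of_mem (Finset.mem_map.2 ⟨c, hc, rfl⟩)

/-- the offset to use for the source pattern -/
def srcOff (fx fy sw : Bool) (w h : ℕ) (τ' : Cell) : Cell :=
  let T1 := bif sw then τ'.2 else τ'.1
  let T2 := bif sw then τ'.1 else τ'.2
  (bif fx then -T1 - ((w : ℤ) - 1) else T1, bif fy then -T2 - ((h : ℤ) - 1) else T2)

theorem dec_trBit (o w h i : ℕ) (hw : w ≤ 64) (hh : h ≤ 64) (hx : i % 64 < w) (hy : i / 64 < h)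
    (τ' : Cell) :
    dec τ' (trBit o w h i) = gF (o.testBit 0) (o.testBit 1) (o.testBit 2)
      (dec (srcOff (o.testBit 0) (o.testBit 1) (o.testBit 2) w h τ') i) := by
  unfold trBit
  generalize Nat.testBit o 0 = fx
  generalize Nat.testBit o 1 = fy
  generalize Nat.testBit o 2 = sw
  generalize hxx : i % 64 = x at hx
  generalize hyy : i / 64 = y at hy
  have e1 : ((w - 1 - x : ℕ) : ℤ) = (w : ℤ) - 1 - x := by omega
  have e2 : ((h - 1 - y : ℕ) : ℤ) = (h : ℤ) - 1 - y := by omega
  cases fx <;> cases fy <;> cases sw <;>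
    simp only [dec, gF, optE, srcOff, cond_true, cond_false, Equiv.trans_apply, Equiv.refl_apply,
      gX_apply, gY_apply, gS_apply, hxx, hyy, Prod.mk.injEq]
  · constructor
    · have : (64 * y + x) % 64 = x := by omega
      rw [this]
    · have : (64 * y + x) / 64 = y := by omega
      rw [this]
  · constructor
    · have : (64 * x + y) % 64 = y := by omega
      rw [this]
    · have : (64 * x + y) / 64 = x := by omega
      rw [this]
  · constructor
    · have : (64 * (h - 1 - y) + x) % 64 = x := by omega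
      rw [this]
    · have : (64 * (h - 1 - y) + x) / 64 = h - 1 - y := by omega
      rw [this, e2]; ring
  · constructor
    · have : (64 * x + (h - 1 - y)) % 64 = h - 1 - y := by omega
      rw [this, e2]; ring
    · have : (64 * x + (h - 1 - y)) / 64 = x := by omega
      rw [this]
  · constructor
    · have : (64 * y + (w - 1 - x)) % 64 = w - 1 - x := by omega
      rw [this, e1]; ring
    · have : (64 * y + (w - 1 - x)) / 64 = y := by omega
      rw [this]
  · constructor
    · have : (64 * (w - 1 - x) + y) % 64 = y := by omega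
      rw [this]
    · have : (64 * (w - 1 - x) + y) / 64 = w - 1 - x := by omega
      rw [this, e1]; ring
  · constructor
    · have : (64 * (h - 1 - y) + (w - 1 - x)) % 64 = w - 1 - x := by omega
      rw [this, e1]; ring
    · have : (64 * (h - 1 - y) + (w - 1 - x)) / 64 = h - 1 - y := by omega
      rw [this, e2]; ring
  · constructor
    · have : (64 * (w - 1 - x) + (h - 1 - y)) % 64 = h - 1 - y := by omega
      rw [this, e2]; ring
    · have : (64 * (w - 1 - x) + (h - 1 - y)) / 64 = w - 1 - x := by omega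
      rw [this, e1]; ring

theorem trBit_mod (o w h i : ℕ) (hw : w ≤ 64) (hh : h ≤ 64) (hx : i % 64 < w) (hy : i / 64 < h) :
    trBit o w h i % 64 < (bif Nat.testBit o 2 then h else w) := by
  unfold trBit
  generalize Nat.testBit o 0 = fx
  generalize Nat.testBit o 1 = fy
  generalize Nat.testBit o 2 = sw
  cases fx <;> cases fy <;> cases sw <;> simp only [cond_true, cond_false] <;> omega

theorem Lem.valid_tr (o h : ℕ) (LS LA LZ : List ℕ) (l l' : Lem) (hl : l.Valid)
    (hc : trChk o h LS LA LZ l l' = true) : l'.Valid := by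
  simp only [trChk, Bool.and_eq_true, Nat.ble_eq, List.all_eq_true, Nat.blt_eq] at hc
  obtain ⟨⟨⟨⟨⟨⟨⟨⟨⟨⟨⟨⟨hw, hh⟩, hLS⟩, hLA⟩, hLZ⟩, eS⟩, eA⟩, eZ⟩, eS'⟩, eA'⟩, eZ'⟩, ed⟩, ew⟩ := hc
  have eS := Nat.eq_of_beq_eq_true eS
  have eA := Nat.eq_of_beq_eq_true eA
  have eZ := Nat.eq_of_beq_eq_true eZ
  have eS' := Nat.eq_of_beq_eq_true eS'
  have eA' := Nat.eq_of_beq_eq_true eA'
  have eZ' := Nat.eq_of_beq_eq_true eZ'
  have ed := Nat.eq_of_beq_eq_true ed
  have ew := Nat.eq_of_beq_eq_true ew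
  obtain ⟨iS, iZ, iA, hQ⟩ := hl
  -- generic facts for one of the three masks
  have inw : ∀ (L : List ℕ) (X X' : ℕ), (∀ i ∈ L, i / 64 < h) → maskOf L = X →
      maskOf (L.map (trBit o l.w h)) = X' → InW l.w X → InW l'.w X' := by
    intro L X X' hL e e' hin j hj
    rw [← e', testBit_maskOf, List.mem_map] at hj
    obtain ⟨i, hi, rfl⟩ := hj
    rw [ew]
    exact trBit_mod o l.w h i hw hh (hin i (by rw [← e, testBit_maskOf]; exact hi)) (hL i hi)
  have fwd : ∀ (L : List ℕ) (X X' : ℕ), (∀ i ∈ L, i / 64 < h) → maskOf L = X →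
      maskOf (L.map (trBit o l.w h)) = X' → InW l.w X → ∀ τ' : Cell, ∀ i, X.testBit i = true →
      X'.testBit (trBit o l.w h i) = true ∧ dec τ' (trBit o l.w h i) =
        gF (o.testBit 0) (o.testBit 1) (o.testBit 2)
          (dec (srcOff (o.testBit 0) (o.testBit 1) (o.testBit 2) l.w h τ') i) := by
    intro L X X' hL e e' hin τ' i hi
    have hiL : i ∈ L := by rw [← e, testBit_maskOf] at hi; exact hi
    refine ⟨?_, dec_trBit o l.w h i hw hh (hin i hi) (hL i hiL) τ'⟩
    rw [← e', testBit_maskOf]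
    exact List.mem_map_of_mem hiL
  refine ⟨inw LS _ _ hLS eS eS' iS, inw LZ _ _ hLZ eZ eZ' iZ, inw LA _ _ hLA eA eA' iA,
    fun τ' => ?_⟩
  rw [ed]
  exact Q_transport _ (ccp_gF _ _ _) (trBit o l.w h) (fwd LS _ _ hLS eS eS' iS τ')
    (fwd LA _ _ hLA eA eA' iA τ') (fwd LZ _ _ hLZ eZ eZ' iZ τ') (hQ _)

/-! ### a tiny test: five stones of a Snaky, transported by all eight symmetries -/

section Test

def testLem : Lem := ⟨maskOf [0, 1, 2, 3, 67], 1 <<< 68, 1 <<< 68, 1, 5⟩

theorem testLem_valid : testLem.Valid :=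
  Lem.valid_of_chk Tbl.nil Tbl.valid_nil [0, 1, 2, 3, 67] (Cert.fin 68 0 0) testLem
    (by decide +kernel)

def testLem' (o : ℕ) : Lem :=
  ⟨maskOf ([0, 1, 2, 3, 67].map (trBit o 5 2)), maskOf ([68].map (trBit o 5 2)),
    maskOf ([68].map (trBit o 5 2)), 1, bif Nat.testBit o 2 then 2 else 5⟩

example : (testLem' 0).Valid :=
  Lem.valid_tr 0 2 [0, 1, 2, 3, 67] [68] [68] testLem _ testLem_valid (by decide +kernel)
example : (testLem' 1).Valid :=
  Lem.valid_tr 1 2 [0, 1, 2, 3, 67] [68] [68] testLem _ testLem_valid (by decide +kernel)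
example : (testLem' 2).Valid :=
  Lem.valid_tr 2 2 [0, 1, 2, 3, 67] [68] [68] testLem _ testLem_valid (by decide +kernel)
example : (testLem' 3).Valid :=
  Lem.valid_tr 3 2 [0, 1, 2, 3, 67] [68] [68] testLem _ testLem_valid (by decide +kernel)
example : (testLem' 4).Valid :=
  Lem.valid_tr 4 2 [0, 1, 2, 3, 67] [68] [68] testLem _ testLem_valid (by decide +kernel)
example : (testLem' 5).Valid :=
  Lem.valid_tr 5 2 [0, 1, 2, 3, 67] [68] [68] testLem _ testLem_valid (by decide +kernel)
example : (testLem' 6).Valid :=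
  Lem.valid_tr 6 2 [0, 1, 2, 3, 67] [68] [68] testLem _ testLem_valid (by decide +kernel)
example : (testLem' 7).Valid :=
  Lem.valid_tr 7 2 [0, 1, 2, 3, 67] [68] [68] testLem _ testLem_valid (by decide +kernel)

-- with explicit numerals, as the converter will emit them (o = 5: flip x, then swap)
example : (⟨2 ^ 256 + 2 ^ 192 + 2 ^ 128 + 2 ^ 64 + 2 ^ 65, 2 ^ 1, 2 ^ 1, 1, 2⟩ : Lem).Valid :=
  Lem.valid_tr 5 2 [0, 1, 2, 3, 67] [68] [68] testLem _ testLem_valid (by decide +kernel)

end Test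

end Crest.Agent.SnakyAux
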